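/-
R175/P/Defs: definitions and interfaces for S0263 (intersection of parabolic subgroups).  Author: helper20.
See outputs/live/notes175/S0263_h20.md.  FROZEN once landed (helpers go in your own files).
-/
import Mathlib
import Crest.Prelude.Def_ArtinGroup

set_option autoImplicit false

open Finset Crest.GroupTheory

noncomputable section

namespace Crest.Agent.R175.P

/-! ### the simply-laced (unfolded) model: interface -/

/-- a finite graph with oriented edges; `J` is the set of vertices at which one can twist. -/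
structure Gr where
  I : Type
  E : Type
  [fI : Fintype I]
  [dI : DecidableEq I]
  [fE : Fintype E]
  src : E → I
  bar : E → E
  bar_bar : ∀ e, bar (bar e) = e
  noloop : ∀ e, src (bar e) ≠ src e
  J : Set I

attribute [instance] Gr.fI Gr.dI Gr.fE

/-- target of an edge -/
def Gr.tgt (G : Gr) (e : G.E) : G.I := G.src (G.bar e)

/-- number of edges from `i` to `j` -/
def Gr.ne (G : Gr) (i j : G.I) : ℕ := (univ.filter fun e => G.src e = i ∧ G.tgt e = j).card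

/-- nothing above degree `m` on `U` and its neighbours -/
def Gr.Le (G : Gr) {X : Type 1} (h : X → ℤ → G.I → ℕ) (U : Set G.I) (m : ℤ) (x : X) : Prop :=
  ∀ n, m < n → ∀ i ∈ U, h x n i = 0 ∧ ∀ j, G.ne i j ≠ 0 → h x n j = 0

/-- `g` is a product of inverse twists in `U` whose leftmost (last applied) letter may be any `i ∈ U` -/
def Gr.Gar (G : Gr) {X : Type 1} (T : G.I → Equiv.Perm X) (U : Set G.I) (g : Equiv.Perm X) : Prop :=
  ∀ i ∈ U, ∃ l : List G.I, (∀ j ∈ l, j ∈ U) ∧ g = (T i)⁻¹ * (l.map fun j => (T j)⁻¹).prod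

/-- the simply-laced model: classes of dg modules over the dg preprojective algebra (relations at `J` only),
`T i` = up-move (cocone of `B_i → V_i`), `h x n i = dim H^n (V_i)`, `sur m x y`: `H^m x` surjects onto `H^m y` as
modules, `Red x`: no non-acyclic direct summand supported on `J`. -/
structure SL (G : Gr) where
  X : Type 1
  T : G.I → Equiv.Perm X
  h : X → ℤ → G.I → ℕ
  sur : ℤ → X → X → Prop
  Red : X → Prop
  comm : ∀ i ∈ G.J, ∀ j ∈ G.J, G.ne i j = 0 → T i * T j = T j * T i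
  braid : ∀ i ∈ G.J, ∀ j ∈ G.J, G.ne i j = 1 → T i * T j * T i = T j * T i * T j
  bdd : ∀ x, ∃ m : ℤ, ∀ n, m < n → ∀ i, h x n i = 0
  loc : ∀ i ∈ G.J, ∀ j, j ≠ i → ∀ x n, h (T i x) n j = h x n j
  down : ∀ i ∈ G.J, ∀ m x, G.Le h {i} m x → (∀ n, m < n → h ((T i)⁻¹ x) n i = 0) ∧
    ∑ j, G.ne i j * h x m j ≤ h x m i + h ((T i)⁻¹ x) m i
  sur_refl : ∀ m x, sur m x x
  sur_trans : ∀ m x y z, sur m x y → sur m y z → sur m x z
  sur_le : ∀ m x y, sur m x y → ∀ i, h y m i ≤ h x m i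
  sur_down : ∀ i ∈ G.J, ∀ m x y, G.Le h {i} m x → G.Le h {i} m y → sur m x y → sur m ((T i)⁻¹ x) ((T i)⁻¹ y)
  sur_alw : ∀ i ∈ G.J, ∀ m x y, G.Le h {i} m x → G.Le h {i} m y → sur m x y → G.Le h {i} m (T i x) →
    G.Le h {i} m (T i y)
  fold : ∀ i ∈ G.J, ∀ m x, G.Le h {i} m x → G.Le h {i} m (T i x) → sur m ((T i)⁻¹ x) x
  top3 : ∀ i ∈ G.J, ∀ j ∈ G.J, G.ne i j = 1 → ∀ m x, G.Le h {i, j} m x → G.Le h {i, j} m (T i x) →
    G.Le h {i, j} m (T j x) → G.Le h {i, j} m (T j (T i x))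
  exact : ∀ i ∈ G.J, ∀ m x, G.Le h {i} m x → G.Le h {i} m (T i x) → h ((T i)⁻¹ x) m i = h x m i →
    2 * h x m i = ∑ j, G.ne i j * h x m j → sur m (T i x) x
  kill : ∀ U ⊆ G.J, ∀ g, G.Gar T U g → ∀ n x, G.Le h U n x → (∀ i ∈ U, ∀ j, j ∉ U → G.ne i j ≠ 0 → h x n j = 0) →
    ∀ i ∈ U, h (g x) n i = 0
  red_T : ∀ i ∈ G.J, ∀ x, Red (T i x) ↔ Red x
  term : ∀ U ⊆ G.J, ∀ g, G.Gar T U g → ∀ (m : ℤ) (x : ℕ → X) (i : ℕ → G.I), Red (x 0) → (∀ k, i k ∈ U) →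
    (∀ k, x (k + 1) = T (i k) (x k)) → (∀ k, G.Le h U m (x k)) → (∀ j ∈ U, ∀ k, ∃ k', k ≤ k' ∧ i k' = j) →
    ∃ k₀, ∀ k, k₀ ≤ k → x (k + 1) = x k
  base : ∀ R : Set G.I, Disjoint R G.J → ∃ p, Red p ∧ (∀ n i, h p n i ≠ 0 ↔ n = 0 ∧ i ∈ R) ∧
    ∀ i ∈ G.J, (∀ j ∈ R, G.ne i j = 0) → T i p = p

/-- block MODEL -/
def S_SL : Prop := ∀ G : Gr, Nonempty (SL G)

/-! ### Artin groups -/

variable {S : Type} [Fintype S] [DecidableEq S] (M : CoxeterMatrix S)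

/-- generators -/
abbrev σ (s : S) : ArtinGroup M := artinGen M s

/-- standard parabolic subgroup -/
abbrev AP (T : Finset S) : Subgroup (ArtinGroup M) := stdParabolic M (T : Set S)

/-- positive elements of a standard parabolic subgroup -/
def Pos (T : Finset S) : Submonoid (ArtinGroup M) := Submonoid.closure (artinGen M '' (T : Set S))

/-- alternating word -/
def alt (s t : S) (k : ℕ) : ArtinGroup M := PresentedGroup.mk _ (artinAltWord s t k)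

/-- weights of the Coxeter diagram (`2` for the label infinity) -/
def adj (s t : S) : ℝ := if s = t then 0 else 2 * Real.cos (Real.pi / (M.M s t : ℝ))

/-- Cartan matrix of `T` applied to `c` -/
def Car (T : Finset S) (c : S → ℝ) (s : S) : ℝ := 2 * c s - ∑ u ∈ T, adj M s u * c u

/-- finite type: the form is positive definite on `U` -/
def FinT (U : Finset S) : Prop := ∀ x : S → ℝ, (∃ u ∈ U, x u ≠ 0) → 0 < ∑ s ∈ U, x s * Car M U x s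

/-- a Garside element of `U` -/
def IsGar (U : Finset S) (Δ : ArtinGroup M) : Prop := ∀ u ∈ U, ∃ q ∈ Pos M U, Δ = q * σ M u

/-- nothing above degree `m` on `U`, its neighbours and its framing -/
def LeP {X : Type 1} (v fr : X → ℤ → S → ℝ) (U : Finset S) (m : ℤ) (x : X) : Prop :=
  ∀ n, m < n → ∀ u ∈ U, fr x n u = 0 ∧ v x n u = 0 ∧ ∀ t, adj M u t ≠ 0 → v x n t = 0

/-- the folded model. -/
structure Mdl where
  X : Type 1
  [act : MulAction (ArtinGroup M) X]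
  v : X → ℤ → S → ℝ
  fr : X → ℤ → S → ℝ
  Λ : Set ℝ
  disc : ∀ R : ℝ, (Λ ∩ Set.Iic R).Finite
  v_mem : ∀ x n s, v x n s ∈ Λ
  v_nonneg : ∀ x n s, 0 ≤ v x n s
  fr_nonneg : ∀ x n s, 0 ≤ fr x n s
  bdd : ∀ x, ∃ m : ℤ, ∀ n, m < n → ∀ s, v x n s = 0 ∧ fr x n s = 0
  fr_smul : ∀ (g : ArtinGroup M) x, fr (g • x) = fr x
  loc : ∀ s t, t ≠ s → ∀ x n, v (σ M s • x) n t = v x n t
  down : ∀ s m x, LeP M v fr {s} m x → (∀ n, m < n → v ((σ M s)⁻¹ • x) n s = 0) ∧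
    fr x m s + ∑ t, adj M s t * v x m t ≤ v x m s + v ((σ M s)⁻¹ • x) m s
  alw2 : ∀ (U : Finset S), ∀ s ∈ U, ∀ t ∈ U, s ≠ t → M.M s t ≠ 0 → ∀ m x, LeP M v fr U m x →
    LeP M v fr U m (σ M s • x) → LeP M v fr U m (σ M t • x) → ∀ k ≤ M.M s t, LeP M v fr U m (alt M s t k • x)
  fold : ∀ (U : Finset S), ∀ s ∈ U, ∀ m x, LeP M v fr U m (σ M s • x) → ∀ q ∈ Pos M U, ∀ u,
    v (q⁻¹ • x) m u ≤ v (q⁻¹ • (σ M s)⁻¹ • x) m u
  exact : ∀ (U : Finset S), ∀ t ∈ U, ∀ m x, LeP M v fr U m (σ M t • x) →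
    2 * v x m t = fr x m t + ∑ u, adj M t u * v x m u → v ((σ M t)⁻¹ • x) m t = v x m t →
    (∀ q ∈ Pos M U, ∀ u, v (q⁻¹ • x) m u ≤ v (q⁻¹ • σ M t • x) m u) ∧
      ∀ u ∈ U, u ≠ t → LeP M v fr U m (σ M u • σ M t • x) → LeP M v fr U m (σ M u • x)
  kill : ∀ (U : Finset S) Δ, IsGar M U Δ → ∀ n x, LeP M v fr U n x →
    (∀ u ∈ U, fr x n u = 0 ∧ ∀ t, t ∉ U → adj M u t ≠ 0 → v x n t = 0) → ∀ u ∈ U, v (Δ⁻¹ • x) n u = 0
  term : ∀ (U : Finset S), (∀ U' ⊆ U, ∃ Δ, IsGar M U' Δ) → ∀ m : ℤ, WellFounded fun y x : X =>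
    LeP M v fr U m x ∧ LeP M v fr U m y ∧ y ≠ x ∧ ∃ s ∈ U, y = σ M s • x
  P : S → X
  P_v : ∀ r n s, v (P r) n s = 0
  P_fr : ∀ r n s, fr (P r) n s ≠ 0 ↔ n = 0 ∧ s = r
  P_fix : ∀ r s, s ≠ r → σ M s • P r = P r

attribute [instance] Mdl.act

/-- block UNF -/
def S_MDL : Prop := Nonempty (Mdl M)

namespace Mdl
variable {M} (Q : Mdl M)

/-- `x ∈ D^{≤ m}` around `U` -/
abbrev Le (U : Finset S) (m : ℤ) (x : Q.X) : Prop := LeP M Q.v Q.fr U m x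

/-- the outside of `T` has nothing above degree `m` -/
def Out (T : Finset S) (m : ℤ) (x : Q.X) : Prop :=
  ∀ n, m < n → ∀ u ∈ T, Q.fr x n u = 0 ∧ ∀ t, t ∉ T → adj M u t ≠ 0 → Q.v x n t = 0

/-- the contribution of the outside of `T` in degree `m` -/
def b (T : Finset S) (x : Q.X) (m : ℤ) (u : S) : ℝ := Q.fr x m u + ∑ t ∈ Tᶜ, adj M u t * Q.v x m t

/-- admissible thresholds -/
def Adm (T : Finset S) (x : Q.X) (m : ℤ) (c : S → ℝ) : Prop := ∀ u ∈ T, Car M T c u ≤ Q.b T x m u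

/-- `p = (type, chamber)` represents a vertex of the Artin complex of `T` with nothing above degree `m` -/
def Vx (T : Finset S) (x : Q.X) (m : ℤ) (p : S × ArtinGroup M) : Prop :=
  p.1 ∈ T ∧ p.2 ∈ AP M T ∧ ∀ n, m < n → Q.v (p.2 • x) n p.1 = 0

/-- the vertices below the thresholds -/
def D (T : Finset S) (x : Q.X) (m : ℤ) (c : S → ℝ) (p : S × ArtinGroup M) : Prop :=
  Q.Vx T x m p ∧ Q.v (p.2 • x) m p.1 < c p.1

end Mdl

/-- same chamber, or same vertex -/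
def Step (T : Finset S) (p q : S × ArtinGroup M) : Prop :=
  p.2 = q.2 ∨ (p.1 = q.1 ∧ q.2 * p.2⁻¹ ∈ AP M (T.erase p.1))

/-- connected inside `D` -/
def Conn (T : Finset S) (D : S × ArtinGroup M → Prop) : S × ArtinGroup M → S × ArtinGroup M → Prop :=
  Relation.ReflTransGen fun p q => D p ∧ D q ∧ Step M T p q

variable {M}

/-- every vertex with nothing above degree `m` has a chamber in `D^{≤ m}` -/
def S_CH (Q : Mdl M) (U : Finset S) : Prop :=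
  ∀ x m, Q.Out U m x → (∃ a ∈ AP M U, Q.Le U m (a • x)) ∧
    ∀ p, Q.Vx U x m p → ∃ a, a * p.2⁻¹ ∈ AP M (U.erase p.1) ∧ Q.Le U m (a • x)

/-- the chambers in `D^{≤ m}` are directed -/
def S_DIR (Q : Mdl M) (U : Finset S) : Prop :=
  ∀ x m, ∀ a ∈ AP M U, ∀ a' ∈ AP M U, Q.Le U m (a • x) → Q.Le U m (a' • x) →
    ∃ d, d * a⁻¹ ∈ Pos M U ∧ d * a'⁻¹ ∈ Pos M U ∧ Q.Le U m (d • x)

/-- stabilisers in `A_U` are parabolic -/
def S_F (Q : Mdl M) (U : Finset S) : Prop :=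
  ∀ x : Q.X, ∃ a ∈ AP M U, ∃ N ⊆ U, ∀ h ∈ AP M U, h • x = x ↔ a * h * a⁻¹ ∈ AP M N

/-- claim `C(T)` -/
def S_C (Q : Mdl M) (T : Finset S) : Prop :=
  ∀ x m c, Q.Out T m x → Q.Adm T x m c → ∀ p q, Q.D T x m c p → Q.D T x m c q → Conn M T (Q.D T x m c) p q

/-- claim `C'(U)` -/
def S_C' (Q : Mdl M) (U : Finset S) : Prop :=
  ∀ x m c, Q.Out U m x → Q.Adm U x m c → (∃ p, Q.D U x m c p) → ∀ z, Q.Vx U x m z → Q.v (z.2 • x) m z.1 = c z.1 →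
    ∃ p, Q.D U x m c p ∧ p.2 * z.2⁻¹ ∈ AP M (U.erase z.1)

variable (M)

/-- the diagram of `T` is connected -/
def Cnt (T : Finset S) : Prop := ∀ T₁ ⊆ T, (∀ s ∈ T₁, ∀ t ∈ T, adj M s t ≠ 0 → t ∈ T₁) → T₁ = ∅ ∨ T₁ = T

/-- block PF: Perron-Frobenius trichotomy, breadth-first orders, perturbation of thresholds -/
def S_PF : Prop :=
  (∀ s t, adj M s t = adj M t s ∧ (adj M s t = 0 ∨ 1 ≤ adj M s t) ∧
    (s ≠ t → adj M s t = 0 → σ M s * σ M t = σ M t * σ M s)) ∧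
  (∀ U U' : Finset S, U' ⊆ U → FinT M U → FinT M U') ∧
  (∀ T : Finset S, Cnt M T → ¬ FinT M T → 2 ≤ T.card ∧ ∃ (y : S → ℝ) (μ : ℝ), (∀ s, 0 < y s) ∧ μ ≤ 0 ∧
    (∀ s ∈ T, Car M T y s = μ * y s) ∧ (μ = 0 → ∀ U ⊂ T, FinT M U)) ∧
  (∀ T : Finset S, Cnt M T → ∀ r ∈ T, ∃ ρ : S → ℕ, Function.Injective ρ ∧
    ∀ u ∈ T, u ≠ r → ρ r < ρ u ∧ ∃ u' ∈ T, adj M u u' ≠ 0 ∧ ρ u' < ρ u) ∧
  ∀ (U U₁ : Finset S) (ρ : S → ℕ) (sl : S → ℝ) (ε : ℝ), U₁ ⊆ U → (∀ u, 0 ≤ sl u) → 0 < ε →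
    (∀ u ∈ U₁, 0 < sl u ∨ ∃ u' ∈ U₁, adj M u u' ≠ 0 ∧ ρ u' < ρ u) →
    ∃ z : S → ℝ, (∀ u ∈ U₁, 0 < z u ∧ z u ≤ ε) ∧ (∀ u, u ∉ U₁ → z u = 0) ∧ ∀ u ∈ U, Car M U z u ≤ sl u

/-- the intersection statement inside `A_T` -/
def S_I (T : Finset S) : Prop :=
  ∀ X ⊆ T, ∀ Y ⊆ T, ∀ g ∈ AP M T, ∃ a ∈ AP M X, ∃ Z ⊆ X, ∀ h,
    (h ∈ AP M X ∧ g⁻¹ * h * g ∈ AP M Y) ↔ a⁻¹ * h * a ∈ AP M Z

end Crest.Agent.R175.P
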